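import Vale.Agent.P032.H728.GD.All

/-! # P032: the checks, part 1 -/

namespace Vale.Agent.P032.H728.G

def li1_0 : List ℕ := [1, 20, 39, 58, 77, 96]

theorem kc1_0 : chkL Cs Es Ns li1_0 = true := by decide +kernel

def li1_1 : List ℕ := [115, 134, 153, 172, 191, 210]

theorem kc1_1 : chkL Cs Es Ns li1_1 = true := by decide +kernel

def li1_2 : List ℕ := [229, 248, 267, 286, 305, 324]

theorem kc1_2 : chkL Cs Es Ns li1_2 = true := by decide +kernel

def li1_3 : List ℕ := [343, 362, 381, 400, 419, 438]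

theorem kc1_3 : chkL Cs Es Ns li1_3 = true := by decide +kernel

def li1_4 : List ℕ := [457, 476, 495, 514, 533, 552]

theorem kc1_4 : chkL Cs Es Ns li1_4 = true := by decide +kernel

def li1_5 : List ℕ := [571, 590, 609, 628, 647, 666]

theorem kc1_5 : chkL Cs Es Ns li1_5 = true := by decide +kernel

def li1_6 : List ℕ := [685, 704, 723, 742, 761, 780]

theorem kc1_6 : chkL Cs Es Ns li1_6 = true := by decide +kernel

def li1_7 : List ℕ := [799, 818, 837, 856, 875, 894]

theorem kc1_7 : chkL Cs Es Ns li1_7 = true := by decide +kernel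

/-- the lists of the part -/
def ll1 : List (List ℕ) := [li1_0, li1_1, li1_2, li1_3, li1_4, li1_5, li1_6, li1_7]

theorem kl1 : ∀ l ∈ ll1, chkL Cs Es Ns l = true := by
  intro l hl
  simp only [ll1, List.mem_cons, List.not_mem_nil, or_false] at hl
  rcases hl with rfl | rfl | rfl | rfl | rfl | rfl | rfl | rfl
  exacts [kc1_0, kc1_1, kc1_2, kc1_3, kc1_4, kc1_5, kc1_6, kc1_7]

end Vale.Agent.P032.H728.G
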