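import Vale.Agent.P032.H728.GD.All

/-! # P032: the checks, part 10 -/

namespace Vale.Agent.P032.H728.G

def li10_0 : List ℕ := [10, 29, 48, 67, 86, 105]

theorem kc10_0 : chkL Cs Es Ns li10_0 = true := by decide +kernel

def li10_1 : List ℕ := [124, 143, 162, 181, 200, 219]

theorem kc10_1 : chkL Cs Es Ns li10_1 = true := by decide +kernel

def li10_2 : List ℕ := [238, 257, 276, 295, 314, 333]

theorem kc10_2 : chkL Cs Es Ns li10_2 = true := by decide +kernel

def li10_3 : List ℕ := [352, 371, 390, 409, 428, 447]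

theorem kc10_3 : chkL Cs Es Ns li10_3 = true := by decide +kernel

def li10_4 : List ℕ := [466, 485, 504, 523, 542, 561]

theorem kc10_4 : chkL Cs Es Ns li10_4 = true := by decide +kernel

def li10_5 : List ℕ := [580, 599, 618, 637, 656, 675]

theorem kc10_5 : chkL Cs Es Ns li10_5 = true := by decide +kernel

def li10_6 : List ℕ := [694, 713, 732, 751, 770, 789]

theorem kc10_6 : chkL Cs Es Ns li10_6 = true := by decide +kernel

def li10_7 : List ℕ := [808, 827, 846, 865, 884, 903]

theorem kc10_7 : chkL Cs Es Ns li10_7 = true := by decide +kernel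

/-- the lists of the part -/
def ll10 : List (List ℕ) := [li10_0, li10_1, li10_2, li10_3, li10_4, li10_5, li10_6, li10_7]

theorem kl10 : ∀ l ∈ ll10, chkL Cs Es Ns l = true := by
  intro l hl
  simp only [ll10, List.mem_cons, List.not_mem_nil, or_false] at hl
  rcases hl with rfl | rfl | rfl | rfl | rfl | rfl | rfl | rfl
  exacts [kc10_0, kc10_1, kc10_2, kc10_3, kc10_4, kc10_5, kc10_6, kc10_7]

end Vale.Agent.P032.H728.G
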