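import Vale.Agent.P032.H728.GD.All

/-! # P032: the checks, part 11 -/

namespace Vale.Agent.P032.H728.G

def li11_0 : List ℕ := [11, 30, 49, 68, 87, 106]

theorem kc11_0 : chkL Cs Es Ns li11_0 = true := by decide +kernel

def li11_1 : List ℕ := [125, 144, 163, 182, 201, 220]

theorem kc11_1 : chkL Cs Es Ns li11_1 = true := by decide +kernel

def li11_2 : List ℕ := [239, 258, 277, 296, 315, 334]

theorem kc11_2 : chkL Cs Es Ns li11_2 = true := by decide +kernel

def li11_3 : List ℕ := [353, 372, 391, 410, 429, 448]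

theorem kc11_3 : chkL Cs Es Ns li11_3 = true := by decide +kernel

def li11_4 : List ℕ := [467, 486, 505, 524, 543, 562]

theorem kc11_4 : chkL Cs Es Ns li11_4 = true := by decide +kernel

def li11_5 : List ℕ := [581, 600, 619, 638, 657, 676]

theorem kc11_5 : chkL Cs Es Ns li11_5 = true := by decide +kernel

def li11_6 : List ℕ := [695, 714, 733, 752, 771, 790]

theorem kc11_6 : chkL Cs Es Ns li11_6 = true := by decide +kernel

def li11_7 : List ℕ := [809, 828, 847, 866, 885, 904]

theorem kc11_7 : chkL Cs Es Ns li11_7 = true := by decide +kernel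

/-- the lists of the part -/
def ll11 : List (List ℕ) := [li11_0, li11_1, li11_2, li11_3, li11_4, li11_5, li11_6, li11_7]

theorem kl11 : ∀ l ∈ ll11, chkL Cs Es Ns l = true := by
  intro l hl
  simp only [ll11, List.mem_cons, List.not_mem_nil, or_false] at hl
  rcases hl with rfl | rfl | rfl | rfl | rfl | rfl | rfl | rfl
  exacts [kc11_0, kc11_1, kc11_2, kc11_3, kc11_4, kc11_5, kc11_6, kc11_7]

end Vale.Agent.P032.H728.G
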