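import Vale.Agent.P032.H728.GD.All

/-! # P032: the checks, part 12 -/

namespace Vale.Agent.P032.H728.G

def li12_0 : List ℕ := [12, 31, 50, 69, 88, 107]

theorem kc12_0 : chkL Cs Es Ns li12_0 = true := by decide +kernel

def li12_1 : List ℕ := [126, 145, 164, 183, 202, 221]

theorem kc12_1 : chkL Cs Es Ns li12_1 = true := by decide +kernel

def li12_2 : List ℕ := [240, 259, 278, 297, 316, 335]

theorem kc12_2 : chkL Cs Es Ns li12_2 = true := by decide +kernel

def li12_3 : List ℕ := [354, 373, 392, 411, 430, 449]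

theorem kc12_3 : chkL Cs Es Ns li12_3 = true := by decide +kernel

def li12_4 : List ℕ := [468, 487, 506, 525, 544, 563]

theorem kc12_4 : chkL Cs Es Ns li12_4 = true := by decide +kernel

def li12_5 : List ℕ := [582, 601, 620, 639, 658, 677]

theorem kc12_5 : chkL Cs Es Ns li12_5 = true := by decide +kernel

def li12_6 : List ℕ := [696, 715, 734, 753, 772, 791]

theorem kc12_6 : chkL Cs Es Ns li12_6 = true := by decide +kernel

def li12_7 : List ℕ := [810, 829, 848, 867, 886]

theorem kc12_7 : chkL Cs Es Ns li12_7 = true := by decide +kernel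

/-- the lists of the part -/
def ll12 : List (List ℕ) := [li12_0, li12_1, li12_2, li12_3, li12_4, li12_5, li12_6, li12_7]

theorem kl12 : ∀ l ∈ ll12, chkL Cs Es Ns l = true := by
  intro l hl
  simp only [ll12, List.mem_cons, List.not_mem_nil, or_false] at hl
  rcases hl with rfl | rfl | rfl | rfl | rfl | rfl | rfl | rfl
  exacts [kc12_0, kc12_1, kc12_2, kc12_3, kc12_4, kc12_5, kc12_6, kc12_7]

end Vale.Agent.P032.H728.G
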