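import Vale.Agent.P032.H728.GD.All

/-! # P032: the checks, part 14 -/

namespace Vale.Agent.P032.H728.G

def li14_0 : List ℕ := [14, 33, 52, 71, 90, 109]

theorem kc14_0 : chkL Cs Es Ns li14_0 = true := by decide +kernel

def li14_1 : List ℕ := [128, 147, 166, 185, 204, 223]

theorem kc14_1 : chkL Cs Es Ns li14_1 = true := by decide +kernel

def li14_2 : List ℕ := [242, 261, 280, 299, 318, 337]

theorem kc14_2 : chkL Cs Es Ns li14_2 = true := by decide +kernel

def li14_3 : List ℕ := [356, 375, 394, 413, 432, 451]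

theorem kc14_3 : chkL Cs Es Ns li14_3 = true := by decide +kernel

def li14_4 : List ℕ := [470, 489, 508, 527, 546, 565]

theorem kc14_4 : chkL Cs Es Ns li14_4 = true := by decide +kernel

def li14_5 : List ℕ := [584, 603, 622, 641, 660, 679]

theorem kc14_5 : chkL Cs Es Ns li14_5 = true := by decide +kernel

def li14_6 : List ℕ := [698, 717, 736, 755, 774, 793]

theorem kc14_6 : chkL Cs Es Ns li14_6 = true := by decide +kernel

def li14_7 : List ℕ := [812, 831, 850, 869, 888]

theorem kc14_7 : chkL Cs Es Ns li14_7 = true := by decide +kernel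

/-- the lists of the part -/
def ll14 : List (List ℕ) := [li14_0, li14_1, li14_2, li14_3, li14_4, li14_5, li14_6, li14_7]

theorem kl14 : ∀ l ∈ ll14, chkL Cs Es Ns l = true := by
  intro l hl
  simp only [ll14, List.mem_cons, List.not_mem_nil, or_false] at hl
  rcases hl with rfl | rfl | rfl | rfl | rfl | rfl | rfl | rfl
  exacts [kc14_0, kc14_1, kc14_2, kc14_3, kc14_4, kc14_5, kc14_6, kc14_7]

end Vale.Agent.P032.H728.G
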