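import Vale.Agent.P032.H728.GD.All

/-! # P032: the checks, part 15 -/

namespace Vale.Agent.P032.H728.G

def li15_0 : List ℕ := [15, 34, 53, 72, 91, 110]

theorem kc15_0 : chkL Cs Es Ns li15_0 = true := by decide +kernel

def li15_1 : List ℕ := [129, 148, 167, 186, 205, 224]

theorem kc15_1 : chkL Cs Es Ns li15_1 = true := by decide +kernel

def li15_2 : List ℕ := [243, 262, 281, 300, 319, 338]

theorem kc15_2 : chkL Cs Es Ns li15_2 = true := by decide +kernel

def li15_3 : List ℕ := [357, 376, 395, 414, 433, 452]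

theorem kc15_3 : chkL Cs Es Ns li15_3 = true := by decide +kernel

def li15_4 : List ℕ := [471, 490, 509, 528, 547, 566]

theorem kc15_4 : chkL Cs Es Ns li15_4 = true := by decide +kernel

def li15_5 : List ℕ := [585, 604, 623, 642, 661, 680]

theorem kc15_5 : chkL Cs Es Ns li15_5 = true := by decide +kernel

def li15_6 : List ℕ := [699, 718, 737, 756, 775, 794]

theorem kc15_6 : chkL Cs Es Ns li15_6 = true := by decide +kernel

def li15_7 : List ℕ := [813, 832, 851, 870, 889]

theorem kc15_7 : chkL Cs Es Ns li15_7 = true := by decide +kernel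

/-- the lists of the part -/
def ll15 : List (List ℕ) := [li15_0, li15_1, li15_2, li15_3, li15_4, li15_5, li15_6, li15_7]

theorem kl15 : ∀ l ∈ ll15, chkL Cs Es Ns l = true := by
  intro l hl
  simp only [ll15, List.mem_cons, List.not_mem_nil, or_false] at hl
  rcases hl with rfl | rfl | rfl | rfl | rfl | rfl | rfl | rfl
  exacts [kc15_0, kc15_1, kc15_2, kc15_3, kc15_4, kc15_5, kc15_6, kc15_7]

end Vale.Agent.P032.H728.G
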