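import Vale.Agent.P032.H728.GD.All

/-! # P032: the checks, part 16 -/

namespace Vale.Agent.P032.H728.G

def li16_0 : List ℕ := [16, 35, 54, 73, 92, 111]

theorem kc16_0 : chkL Cs Es Ns li16_0 = true := by decide +kernel

def li16_1 : List ℕ := [130, 149, 168, 187, 206, 225]

theorem kc16_1 : chkL Cs Es Ns li16_1 = true := by decide +kernel

def li16_2 : List ℕ := [244, 263, 282, 301, 320, 339]

theorem kc16_2 : chkL Cs Es Ns li16_2 = true := by decide +kernel

def li16_3 : List ℕ := [358, 377, 396, 415, 434, 453]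

theorem kc16_3 : chkL Cs Es Ns li16_3 = true := by decide +kernel

def li16_4 : List ℕ := [472, 491, 510, 529, 548, 567]

theorem kc16_4 : chkL Cs Es Ns li16_4 = true := by decide +kernel

def li16_5 : List ℕ := [586, 605, 624, 643, 662, 681]

theorem kc16_5 : chkL Cs Es Ns li16_5 = true := by decide +kernel

def li16_6 : List ℕ := [700, 719, 738, 757, 776, 795]

theorem kc16_6 : chkL Cs Es Ns li16_6 = true := by decide +kernel

def li16_7 : List ℕ := [814, 833, 852, 871, 890]

theorem kc16_7 : chkL Cs Es Ns li16_7 = true := by decide +kernel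

/-- the lists of the part -/
def ll16 : List (List ℕ) := [li16_0, li16_1, li16_2, li16_3, li16_4, li16_5, li16_6, li16_7]

theorem kl16 : ∀ l ∈ ll16, chkL Cs Es Ns l = true := by
  intro l hl
  simp only [ll16, List.mem_cons, List.not_mem_nil, or_false] at hl
  rcases hl with rfl | rfl | rfl | rfl | rfl | rfl | rfl | rfl
  exacts [kc16_0, kc16_1, kc16_2, kc16_3, kc16_4, kc16_5, kc16_6, kc16_7]

end Vale.Agent.P032.H728.G
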