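import Vale.Agent.P032.H728.GD.All

/-! # P032: the checks, part 17 -/

namespace Vale.Agent.P032.H728.G

def li17_0 : List ℕ := [17, 36, 55, 74, 93, 112]

theorem kc17_0 : chkL Cs Es Ns li17_0 = true := by decide +kernel

def li17_1 : List ℕ := [131, 150, 169, 188, 207, 226]

theorem kc17_1 : chkL Cs Es Ns li17_1 = true := by decide +kernel

def li17_2 : List ℕ := [245, 264, 283, 302, 321, 340]

theorem kc17_2 : chkL Cs Es Ns li17_2 = true := by decide +kernel

def li17_3 : List ℕ := [359, 378, 397, 416, 435, 454]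

theorem kc17_3 : chkL Cs Es Ns li17_3 = true := by decide +kernel

def li17_4 : List ℕ := [473, 492, 511, 530, 549, 568]

theorem kc17_4 : chkL Cs Es Ns li17_4 = true := by decide +kernel

def li17_5 : List ℕ := [587, 606, 625, 644, 663, 682]

theorem kc17_5 : chkL Cs Es Ns li17_5 = true := by decide +kernel

def li17_6 : List ℕ := [701, 720, 739, 758, 777, 796]

theorem kc17_6 : chkL Cs Es Ns li17_6 = true := by decide +kernel

def li17_7 : List ℕ := [815, 834, 853, 872, 891]

theorem kc17_7 : chkL Cs Es Ns li17_7 = true := by decide +kernel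

/-- the lists of the part -/
def ll17 : List (List ℕ) := [li17_0, li17_1, li17_2, li17_3, li17_4, li17_5, li17_6, li17_7]

theorem kl17 : ∀ l ∈ ll17, chkL Cs Es Ns l = true := by
  intro l hl
  simp only [ll17, List.mem_cons, List.not_mem_nil, or_false] at hl
  rcases hl with rfl | rfl | rfl | rfl | rfl | rfl | rfl | rfl
  exacts [kc17_0, kc17_1, kc17_2, kc17_3, kc17_4, kc17_5, kc17_6, kc17_7]

end Vale.Agent.P032.H728.G
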