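import Vale.Agent.P032.H728.GD.All

/-! # P032: the checks, part 18 -/

namespace Vale.Agent.P032.H728.G

def li18_0 : List ℕ := [18, 37, 56, 75, 94, 113]

theorem kc18_0 : chkL Cs Es Ns li18_0 = true := by decide +kernel

def li18_1 : List ℕ := [132, 151, 170, 189, 208, 227]

theorem kc18_1 : chkL Cs Es Ns li18_1 = true := by decide +kernel

def li18_2 : List ℕ := [246, 265, 284, 303, 322, 341]

theorem kc18_2 : chkL Cs Es Ns li18_2 = true := by decide +kernel

def li18_3 : List ℕ := [360, 379, 398, 417, 436, 455]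

theorem kc18_3 : chkL Cs Es Ns li18_3 = true := by decide +kernel

def li18_4 : List ℕ := [474, 493, 512, 531, 550, 569]

theorem kc18_4 : chkL Cs Es Ns li18_4 = true := by decide +kernel

def li18_5 : List ℕ := [588, 607, 626, 645, 664, 683]

theorem kc18_5 : chkL Cs Es Ns li18_5 = true := by decide +kernel

def li18_6 : List ℕ := [702, 721, 740, 759, 778, 797]

theorem kc18_6 : chkL Cs Es Ns li18_6 = true := by decide +kernel

def li18_7 : List ℕ := [816, 835, 854, 873, 892]

theorem kc18_7 : chkL Cs Es Ns li18_7 = true := by decide +kernel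

/-- the lists of the part -/
def ll18 : List (List ℕ) := [li18_0, li18_1, li18_2, li18_3, li18_4, li18_5, li18_6, li18_7]

theorem kl18 : ∀ l ∈ ll18, chkL Cs Es Ns l = true := by
  intro l hl
  simp only [ll18, List.mem_cons, List.not_mem_nil, or_false] at hl
  rcases hl with rfl | rfl | rfl | rfl | rfl | rfl | rfl | rfl
  exacts [kc18_0, kc18_1, kc18_2, kc18_3, kc18_4, kc18_5, kc18_6, kc18_7]

end Vale.Agent.P032.H728.G
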