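import Vale.Agent.P032.H728.GD.All

/-! # P032: the checks, part 2 -/

namespace Vale.Agent.P032.H728.G

def li2_0 : List ℕ := [2, 21, 40, 59, 78, 97]

theorem kc2_0 : chkL Cs Es Ns li2_0 = true := by decide +kernel

def li2_1 : List ℕ := [116, 135, 154, 173, 192, 211]

theorem kc2_1 : chkL Cs Es Ns li2_1 = true := by decide +kernel

def li2_2 : List ℕ := [230, 249, 268, 287, 306, 325]

theorem kc2_2 : chkL Cs Es Ns li2_2 = true := by decide +kernel

def li2_3 : List ℕ := [344, 363, 382, 401, 420, 439]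

theorem kc2_3 : chkL Cs Es Ns li2_3 = true := by decide +kernel

def li2_4 : List ℕ := [458, 477, 496, 515, 534, 553]

theorem kc2_4 : chkL Cs Es Ns li2_4 = true := by decide +kernel

def li2_5 : List ℕ := [572, 591, 610, 629, 648, 667]

theorem kc2_5 : chkL Cs Es Ns li2_5 = true := by decide +kernel

def li2_6 : List ℕ := [686, 705, 724, 743, 762, 781]

theorem kc2_6 : chkL Cs Es Ns li2_6 = true := by decide +kernel

def li2_7 : List ℕ := [800, 819, 838, 857, 876, 895]

theorem kc2_7 : chkL Cs Es Ns li2_7 = true := by decide +kernel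

/-- the lists of the part -/
def ll2 : List (List ℕ) := [li2_0, li2_1, li2_2, li2_3, li2_4, li2_5, li2_6, li2_7]

theorem kl2 : ∀ l ∈ ll2, chkL Cs Es Ns l = true := by
  intro l hl
  simp only [ll2, List.mem_cons, List.not_mem_nil, or_false] at hl
  rcases hl with rfl | rfl | rfl | rfl | rfl | rfl | rfl | rfl
  exacts [kc2_0, kc2_1, kc2_2, kc2_3, kc2_4, kc2_5, kc2_6, kc2_7]

end Vale.Agent.P032.H728.G
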