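import Vale.Agent.P032.H728.GD.All

/-! # P032: the checks, part 3 -/

namespace Vale.Agent.P032.H728.G

def li3_0 : List ℕ := [3, 22, 41, 60, 79, 98]

theorem kc3_0 : chkL Cs Es Ns li3_0 = true := by decide +kernel

def li3_1 : List ℕ := [117, 136, 155, 174, 193, 212]

theorem kc3_1 : chkL Cs Es Ns li3_1 = true := by decide +kernel

def li3_2 : List ℕ := [231, 250, 269, 288, 307, 326]

theorem kc3_2 : chkL Cs Es Ns li3_2 = true := by decide +kernel

def li3_3 : List ℕ := [345, 364, 383, 402, 421, 440]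

theorem kc3_3 : chkL Cs Es Ns li3_3 = true := by decide +kernel

def li3_4 : List ℕ := [459, 478, 497, 516, 535, 554]

theorem kc3_4 : chkL Cs Es Ns li3_4 = true := by decide +kernel

def li3_5 : List ℕ := [573, 592, 611, 630, 649, 668]

theorem kc3_5 : chkL Cs Es Ns li3_5 = true := by decide +kernel

def li3_6 : List ℕ := [687, 706, 725, 744, 763, 782]

theorem kc3_6 : chkL Cs Es Ns li3_6 = true := by decide +kernel

def li3_7 : List ℕ := [801, 820, 839, 858, 877, 896]

theorem kc3_7 : chkL Cs Es Ns li3_7 = true := by decide +kernel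

/-- the lists of the part -/
def ll3 : List (List ℕ) := [li3_0, li3_1, li3_2, li3_3, li3_4, li3_5, li3_6, li3_7]

theorem kl3 : ∀ l ∈ ll3, chkL Cs Es Ns l = true := by
  intro l hl
  simp only [ll3, List.mem_cons, List.not_mem_nil, or_false] at hl
  rcases hl with rfl | rfl | rfl | rfl | rfl | rfl | rfl | rfl
  exacts [kc3_0, kc3_1, kc3_2, kc3_3, kc3_4, kc3_5, kc3_6, kc3_7]

end Vale.Agent.P032.H728.G
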