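import Vale.Agent.P032.H728.GD.All

/-! # P032: the checks, part 4 -/

namespace Vale.Agent.P032.H728.G

def li4_0 : List ℕ := [4, 23, 42, 61, 80, 99]

theorem kc4_0 : chkL Cs Es Ns li4_0 = true := by decide +kernel

def li4_1 : List ℕ := [118, 137, 156, 175, 194, 213]

theorem kc4_1 : chkL Cs Es Ns li4_1 = true := by decide +kernel

def li4_2 : List ℕ := [232, 251, 270, 289, 308, 327]

theorem kc4_2 : chkL Cs Es Ns li4_2 = true := by decide +kernel

def li4_3 : List ℕ := [346, 365, 384, 403, 422, 441]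

theorem kc4_3 : chkL Cs Es Ns li4_3 = true := by decide +kernel

def li4_4 : List ℕ := [460, 479, 498, 517, 536, 555]

theorem kc4_4 : chkL Cs Es Ns li4_4 = true := by decide +kernel

def li4_5 : List ℕ := [574, 593, 612, 631, 650, 669]

theorem kc4_5 : chkL Cs Es Ns li4_5 = true := by decide +kernel

def li4_6 : List ℕ := [688, 707, 726, 745, 764, 783]

theorem kc4_6 : chkL Cs Es Ns li4_6 = true := by decide +kernel

def li4_7 : List ℕ := [802, 821, 840, 859, 878, 897]

theorem kc4_7 : chkL Cs Es Ns li4_7 = true := by decide +kernel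

/-- the lists of the part -/
def ll4 : List (List ℕ) := [li4_0, li4_1, li4_2, li4_3, li4_4, li4_5, li4_6, li4_7]

theorem kl4 : ∀ l ∈ ll4, chkL Cs Es Ns l = true := by
  intro l hl
  simp only [ll4, List.mem_cons, List.not_mem_nil, or_false] at hl
  rcases hl with rfl | rfl | rfl | rfl | rfl | rfl | rfl | rfl
  exacts [kc4_0, kc4_1, kc4_2, kc4_3, kc4_4, kc4_5, kc4_6, kc4_7]

end Vale.Agent.P032.H728.G
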