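import Vale.Agent.P032.H728.GD.All

/-! # P032: the checks, part 5 -/

namespace Vale.Agent.P032.H728.G

def li5_0 : List ℕ := [5, 24, 43, 62, 81, 100]

theorem kc5_0 : chkL Cs Es Ns li5_0 = true := by decide +kernel

def li5_1 : List ℕ := [119, 138, 157, 176, 195, 214]

theorem kc5_1 : chkL Cs Es Ns li5_1 = true := by decide +kernel

def li5_2 : List ℕ := [233, 252, 271, 290, 309, 328]

theorem kc5_2 : chkL Cs Es Ns li5_2 = true := by decide +kernel

def li5_3 : List ℕ := [347, 366, 385, 404, 423, 442]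

theorem kc5_3 : chkL Cs Es Ns li5_3 = true := by decide +kernel

def li5_4 : List ℕ := [461, 480, 499, 518, 537, 556]

theorem kc5_4 : chkL Cs Es Ns li5_4 = true := by decide +kernel

def li5_5 : List ℕ := [575, 594, 613, 632, 651, 670]

theorem kc5_5 : chkL Cs Es Ns li5_5 = true := by decide +kernel

def li5_6 : List ℕ := [689, 708, 727, 746, 765, 784]

theorem kc5_6 : chkL Cs Es Ns li5_6 = true := by decide +kernel

def li5_7 : List ℕ := [803, 822, 841, 860, 879, 898]

theorem kc5_7 : chkL Cs Es Ns li5_7 = true := by decide +kernel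

/-- the lists of the part -/
def ll5 : List (List ℕ) := [li5_0, li5_1, li5_2, li5_3, li5_4, li5_5, li5_6, li5_7]

theorem kl5 : ∀ l ∈ ll5, chkL Cs Es Ns l = true := by
  intro l hl
  simp only [ll5, List.mem_cons, List.not_mem_nil, or_false] at hl
  rcases hl with rfl | rfl | rfl | rfl | rfl | rfl | rfl | rfl
  exacts [kc5_0, kc5_1, kc5_2, kc5_3, kc5_4, kc5_5, kc5_6, kc5_7]

end Vale.Agent.P032.H728.G
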