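import Vale.Agent.P032.H728.GD.All

/-! # P032: the checks, part 6 -/

namespace Vale.Agent.P032.H728.G

def li6_0 : List ℕ := [6, 25, 44, 63, 82, 101]

theorem kc6_0 : chkL Cs Es Ns li6_0 = true := by decide +kernel

def li6_1 : List ℕ := [120, 139, 158, 177, 196, 215]

theorem kc6_1 : chkL Cs Es Ns li6_1 = true := by decide +kernel

def li6_2 : List ℕ := [234, 253, 272, 291, 310, 329]

theorem kc6_2 : chkL Cs Es Ns li6_2 = true := by decide +kernel

def li6_3 : List ℕ := [348, 367, 386, 405, 424, 443]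

theorem kc6_3 : chkL Cs Es Ns li6_3 = true := by decide +kernel

def li6_4 : List ℕ := [462, 481, 500, 519, 538, 557]

theorem kc6_4 : chkL Cs Es Ns li6_4 = true := by decide +kernel

def li6_5 : List ℕ := [576, 595, 614, 633, 652, 671]

theorem kc6_5 : chkL Cs Es Ns li6_5 = true := by decide +kernel

def li6_6 : List ℕ := [690, 709, 728, 747, 766, 785]

theorem kc6_6 : chkL Cs Es Ns li6_6 = true := by decide +kernel

def li6_7 : List ℕ := [804, 823, 842, 861, 880, 899]

theorem kc6_7 : chkL Cs Es Ns li6_7 = true := by decide +kernel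

/-- the lists of the part -/
def ll6 : List (List ℕ) := [li6_0, li6_1, li6_2, li6_3, li6_4, li6_5, li6_6, li6_7]

theorem kl6 : ∀ l ∈ ll6, chkL Cs Es Ns l = true := by
  intro l hl
  simp only [ll6, List.mem_cons, List.not_mem_nil, or_false] at hl
  rcases hl with rfl | rfl | rfl | rfl | rfl | rfl | rfl | rfl
  exacts [kc6_0, kc6_1, kc6_2, kc6_3, kc6_4, kc6_5, kc6_6, kc6_7]

end Vale.Agent.P032.H728.G
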