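import Vale.Agent.P032.H728.GD.All

/-! # P032: the checks, part 7 -/

namespace Vale.Agent.P032.H728.G

def li7_0 : List ℕ := [7, 26, 45, 64, 83, 102]

theorem kc7_0 : chkL Cs Es Ns li7_0 = true := by decide +kernel

def li7_1 : List ℕ := [121, 140, 159, 178, 197, 216]

theorem kc7_1 : chkL Cs Es Ns li7_1 = true := by decide +kernel

def li7_2 : List ℕ := [235, 254, 273, 292, 311, 330]

theorem kc7_2 : chkL Cs Es Ns li7_2 = true := by decide +kernel

def li7_3 : List ℕ := [349, 368, 387, 406, 425, 444]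

theorem kc7_3 : chkL Cs Es Ns li7_3 = true := by decide +kernel

def li7_4 : List ℕ := [463, 482, 501, 520, 539, 558]

theorem kc7_4 : chkL Cs Es Ns li7_4 = true := by decide +kernel

def li7_5 : List ℕ := [577, 596, 615, 634, 653, 672]

theorem kc7_5 : chkL Cs Es Ns li7_5 = true := by decide +kernel

def li7_6 : List ℕ := [691, 710, 729, 748, 767, 786]

theorem kc7_6 : chkL Cs Es Ns li7_6 = true := by decide +kernel

def li7_7 : List ℕ := [805, 824, 843, 862, 881, 900]

theorem kc7_7 : chkL Cs Es Ns li7_7 = true := by decide +kernel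

/-- the lists of the part -/
def ll7 : List (List ℕ) := [li7_0, li7_1, li7_2, li7_3, li7_4, li7_5, li7_6, li7_7]

theorem kl7 : ∀ l ∈ ll7, chkL Cs Es Ns l = true := by
  intro l hl
  simp only [ll7, List.mem_cons, List.not_mem_nil, or_false] at hl
  rcases hl with rfl | rfl | rfl | rfl | rfl | rfl | rfl | rfl
  exacts [kc7_0, kc7_1, kc7_2, kc7_3, kc7_4, kc7_5, kc7_6, kc7_7]

end Vale.Agent.P032.H728.G
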