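import Vale.Agent.P032.H728.GD.All

/-! # P032: the checks, part 8 -/

namespace Vale.Agent.P032.H728.G

def li8_0 : List ℕ := [8, 27, 46, 65, 84, 103]

theorem kc8_0 : chkL Cs Es Ns li8_0 = true := by decide +kernel

def li8_1 : List ℕ := [122, 141, 160, 179, 198, 217]

theorem kc8_1 : chkL Cs Es Ns li8_1 = true := by decide +kernel

def li8_2 : List ℕ := [236, 255, 274, 293, 312, 331]

theorem kc8_2 : chkL Cs Es Ns li8_2 = true := by decide +kernel

def li8_3 : List ℕ := [350, 369, 388, 407, 426, 445]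

theorem kc8_3 : chkL Cs Es Ns li8_3 = true := by decide +kernel

def li8_4 : List ℕ := [464, 483, 502, 521, 540, 559]

theorem kc8_4 : chkL Cs Es Ns li8_4 = true := by decide +kernel

def li8_5 : List ℕ := [578, 597, 616, 635, 654, 673]

theorem kc8_5 : chkL Cs Es Ns li8_5 = true := by decide +kernel

def li8_6 : List ℕ := [692, 711, 730, 749, 768, 787]

theorem kc8_6 : chkL Cs Es Ns li8_6 = true := by decide +kernel

def li8_7 : List ℕ := [806, 825, 844, 863, 882, 901]

theorem kc8_7 : chkL Cs Es Ns li8_7 = true := by decide +kernel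

/-- the lists of the part -/
def ll8 : List (List ℕ) := [li8_0, li8_1, li8_2, li8_3, li8_4, li8_5, li8_6, li8_7]

theorem kl8 : ∀ l ∈ ll8, chkL Cs Es Ns l = true := by
  intro l hl
  simp only [ll8, List.mem_cons, List.not_mem_nil, or_false] at hl
  rcases hl with rfl | rfl | rfl | rfl | rfl | rfl | rfl | rfl
  exacts [kc8_0, kc8_1, kc8_2, kc8_3, kc8_4, kc8_5, kc8_6, kc8_7]

end Vale.Agent.P032.H728.G
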