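import Vale.Agent.P032.H728.GD.All

/-! # P032: the checks, part 9 -/

namespace Vale.Agent.P032.H728.G

def li9_0 : List ℕ := [9, 28, 47, 66, 85, 104]

theorem kc9_0 : chkL Cs Es Ns li9_0 = true := by decide +kernel

def li9_1 : List ℕ := [123, 142, 161, 180, 199, 218]

theorem kc9_1 : chkL Cs Es Ns li9_1 = true := by decide +kernel

def li9_2 : List ℕ := [237, 256, 275, 294, 313, 332]

theorem kc9_2 : chkL Cs Es Ns li9_2 = true := by decide +kernel

def li9_3 : List ℕ := [351, 370, 389, 408, 427, 446]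

theorem kc9_3 : chkL Cs Es Ns li9_3 = true := by decide +kernel

def li9_4 : List ℕ := [465, 484, 503, 522, 541, 560]

theorem kc9_4 : chkL Cs Es Ns li9_4 = true := by decide +kernel

def li9_5 : List ℕ := [579, 598, 617, 636, 655, 674]

theorem kc9_5 : chkL Cs Es Ns li9_5 = true := by decide +kernel

def li9_6 : List ℕ := [693, 712, 731, 750, 769, 788]

theorem kc9_6 : chkL Cs Es Ns li9_6 = true := by decide +kernel

def li9_7 : List ℕ := [807, 826, 845, 864, 883, 902]

theorem kc9_7 : chkL Cs Es Ns li9_7 = true := by decide +kernel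

/-- the lists of the part -/
def ll9 : List (List ℕ) := [li9_0, li9_1, li9_2, li9_3, li9_4, li9_5, li9_6, li9_7]

theorem kl9 : ∀ l ∈ ll9, chkL Cs Es Ns l = true := by
  intro l hl
  simp only [ll9, List.mem_cons, List.not_mem_nil, or_false] at hl
  rcases hl with rfl | rfl | rfl | rfl | rfl | rfl | rfl | rfl
  exacts [kc9_0, kc9_1, kc9_2, kc9_3, kc9_4, kc9_5, kc9_6, kc9_7]

end Vale.Agent.P032.H728.G
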