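import Vale.Agent.P032.H728.GD.E0
import Vale.Agent.P032.H728.GD.E1
import Vale.Agent.P032.H728.GD.E2
import Vale.Agent.P032.H728.GD.E3
import Vale.Agent.P032.H728.GD.E4
import Vale.Agent.P032.H728.GD.E5
import Vale.Agent.P032.H728.GD.E6
import Vale.Agent.P032.H728.GD.E7
import Vale.Agent.P032.H728.GD.E8
import Vale.Agent.P032.H728.GD.E9
import Vale.Agent.P032.H728.GD.E10
import Vale.Agent.P032.H728.GD.E11
import Vale.Agent.P032.H728.GD.E12
import Vale.Agent.P032.H728.GD.E13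
import Vale.Agent.P032.H728.GD.E14
import Vale.Agent.P032.H728.GD.E15
import Vale.Agent.P032.H728.GD.N0
import Vale.Agent.P032.H728.GD.N1
import Vale.Agent.P032.H728.GD.N2
import Vale.Agent.P032.H728.GD.N3
import Vale.Agent.P032.H728.GD.N4
import Vale.Agent.P032.H728.GD.N5
import Vale.Agent.P032.H728.GD.N6
import Vale.Agent.P032.H728.GD.N7
import Vale.Agent.P032.H728.GD.N8
import Vale.Agent.P032.H728.GD.N9
import Vale.Agent.P032.H728.GD.N10
import Vale.Agent.P032.H728.GD.N11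
import Vale.Agent.P032.H728.GD.N12
import Vale.Agent.P032.H728.GD.N13
import Vale.Agent.P032.H728.GD.N14
import Vale.Agent.P032.H728.GD.N15
import Vale.Agent.P032.H728.GD.C

/-! # P032: the data of the general end -/

noncomputable section

namespace Vale.Agent.P032.H728.G

def treeE : Tr (List Grp) :=
  (.nd (.nd (.nd (.nd tE0 tE8) (.nd tE4 tE12)) (.nd (.nd tE2 tE10) (.nd tE6 tE14))) (.nd (.nd (.nd tE1 tE9) (.nd tE5 tE13)) (.nd (.nd tE3 tE11) (.nd tE7 tE15))))

def Es : ℕ → List Grp := gt treeE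

def treeN : Tr (List Node) :=
  (.nd (.nd (.nd (.nd tN0 tN8) (.nd tN4 tN12)) (.nd (.nd tN2 tN10) (.nd tN6 tN14))) (.nd (.nd (.nd tN1 tN9) (.nd tN5 tN13)) (.nd (.nd tN3 tN11) (.nd tN7 tN15))))

def Ns : ℕ → List Node := gt treeN

end Vale.Agent.P032.H728.G
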