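import Vale.Agent.P032.H728.GD.All

/-! # P032: the checks, part 0 -/

namespace Vale.Agent.P032.H728.G

def li0_0 : List ℕ := [0, 19, 38, 57, 76, 95]

theorem kc0_0 : chkL Cs Es Ns li0_0 = true := by decide +kernel

def li0_1 : List ℕ := [114, 133, 152, 171, 190, 209]

theorem kc0_1 : chkL Cs Es Ns li0_1 = true := by decide +kernel

def li0_2 : List ℕ := [228, 247, 266, 285, 304, 323]

theorem kc0_2 : chkL Cs Es Ns li0_2 = true := by decide +kernel

def li0_3 : List ℕ := [342, 361, 380, 399, 418, 437]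

theorem kc0_3 : chkL Cs Es Ns li0_3 = true := by decide +kernel

def li0_4 : List ℕ := [456, 475, 494, 513, 532, 551]

theorem kc0_4 : chkL Cs Es Ns li0_4 = true := by decide +kernel

def li0_5 : List ℕ := [570, 589, 608, 627, 646, 665]

theorem kc0_5 : chkL Cs Es Ns li0_5 = true := by decide +kernel

def li0_6 : List ℕ := [684, 703, 722, 741, 760, 779]

theorem kc0_6 : chkL Cs Es Ns li0_6 = true := by decide +kernel

def li0_7 : List ℕ := [798, 817, 836, 855, 874, 893]

theorem kc0_7 : chkL Cs Es Ns li0_7 = true := by decide +kernel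

/-- the lists of the part -/
def ll0 : List (List ℕ) := [li0_0, li0_1, li0_2, li0_3, li0_4, li0_5, li0_6, li0_7]

theorem kl0 : ∀ l ∈ ll0, chkL Cs Es Ns l = true := by
  intro l hl
  simp only [ll0, List.mem_cons, List.not_mem_nil, or_false] at hl
  rcases hl with rfl | rfl | rfl | rfl | rfl | rfl | rfl | rfl
  exacts [kc0_0, kc0_1, kc0_2, kc0_3, kc0_4, kc0_5, kc0_6, kc0_7]

end Vale.Agent.P032.H728.G
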