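import Vale.Agent.P032.H728.GD.All

/-! # P032: the checks, part 13 -/

namespace Vale.Agent.P032.H728.G

def li13_0 : List ℕ := [13, 32, 51, 70, 89, 108]

theorem kc13_0 : chkL Cs Es Ns li13_0 = true := by decide +kernel

def li13_1 : List ℕ := [127, 146, 165, 184, 203, 222]

theorem kc13_1 : chkL Cs Es Ns li13_1 = true := by decide +kernel

def li13_2 : List ℕ := [241, 260, 279, 298, 317, 336]

theorem kc13_2 : chkL Cs Es Ns li13_2 = true := by decide +kernel

def li13_3 : List ℕ := [355, 374, 393, 412, 431, 450]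

theorem kc13_3 : chkL Cs Es Ns li13_3 = true := by decide +kernel

def li13_4 : List ℕ := [469, 488, 507, 526, 545, 564]

theorem kc13_4 : chkL Cs Es Ns li13_4 = true := by decide +kernel

def li13_5 : List ℕ := [583, 602, 621, 640, 659, 678]

theorem kc13_5 : chkL Cs Es Ns li13_5 = true := by decide +kernel

def li13_6 : List ℕ := [697, 716, 735, 754, 773, 792]

theorem kc13_6 : chkL Cs Es Ns li13_6 = true := by decide +kernel

def li13_7 : List ℕ := [811, 830, 849, 868, 887]

theorem kc13_7 : chkL Cs Es Ns li13_7 = true := by decide +kernel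

/-- the lists of the part -/
def ll13 : List (List ℕ) := [li13_0, li13_1, li13_2, li13_3, li13_4, li13_5, li13_6, li13_7]

theorem kl13 : ∀ l ∈ ll13, chkL Cs Es Ns l = true := by
  intro l hl
  simp only [ll13, List.mem_cons, List.not_mem_nil, or_false] at hl
  rcases hl with rfl | rfl | rfl | rfl | rfl | rfl | rfl | rfl
  exacts [kc13_0, kc13_1, kc13_2, kc13_3, kc13_4, kc13_5, kc13_6, kc13_7]

end Vale.Agent.P032.H728.G
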